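import Mathlib.MeasureTheory.Function.Jacobian
import Mathlib.MeasureTheory.Measure.Lebesgue.Complex
import Mathlib.MeasureTheory.Group.Prod
import Mathlib.RingTheory.Complex
import Mathlib.RingTheory.Norm.Transitivity
import Vale.Agent.P290.K.AllDefs

/-! Comparison of volumes under finitely many holomorphic maps between open subsets of `ℂ²`. -/

open Set Filter Metric MeasureTheory
open scoped Topology

namespace Vale.Agent.P290.R2.H850

open Vale.Agent.P290.All

/-- the real determinant of a complex linear map -/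
theorem det_real (L : C2 →L[ℂ] C2) : (L.restrictScalars ℝ).det = ‖L.det‖ ^ 2 := by
  have h := LinearMap.det_restrictScalars (R := ℝ) (S := ℂ) (A := C2) (f := (L : C2 →ₗ[ℂ] C2))
  have h2 : (L.restrictScalars ℝ).det = LinearMap.det ((L : C2 →ₗ[ℂ] C2).restrictScalars ℝ) := rfl
  rw [h2, h, Algebra.norm_complex_apply, Complex.normSq_eq_norm_sq]

theorem haar : (volume : Measure (ℂ × ℂ)).IsAddHaarMeasure :=
  Measure.prod.instIsAddHaarMeasure _ _

/-- the volume of the image of an open set under a holomorphic map whose Jacobian determinant is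
bounded by `K` -/
theorem image_le (S : Set C2) (hS : IsOpen S) (f : C2 → C2)
    (hf : ∀ w ∈ S, DifferentiableAt ℂ f w) {K : ℝ}
    (hdet : ∀ w ∈ S, ‖(fderiv ℂ f w).det‖ ≤ K) :
    volume (f '' S) ≤ ENNReal.ofReal (K ^ 2) * volume S := by
  have h1 : ∀ w ∈ S, HasFDerivWithinAt f ((fderiv ℂ f w).restrictScalars ℝ) S w := fun w hw =>
    ((hf w hw).hasFDerivAt.restrictScalars ℝ).hasFDerivWithinAt
  have := haar
  refine (addHaar_image_le_lintegral_abs_det_fderiv volume hS.measurableSet h1).trans ?_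
  rw [← setLIntegral_const]
  refine setLIntegral_mono measurable_const fun w hw => ENNReal.ofReal_le_ofReal ?_
  rw [det_real, abs_of_nonneg (sq_nonneg _)]
  exact pow_le_pow_left₀ (norm_nonneg _) (hdet w hw) 2

theorem measure_part {ι : Type} [Fintype ι] (S : ι → Set C2) (hS : ∀ i, IsOpen (S i))
    (f : ι → C2 → C2) (v : ι → C2) (r : ι → ℝ) (hsub : ∀ i, S i ⊆ ball (v i) (r i))
    (hf : ∀ i, ∀ w ∈ S i, DifferentiableAt ℂ (f i) w) {K : ℝ}
    (hdet : ∀ i, ∀ w ∈ S i, ‖(fderiv ℂ (f i) w).det‖ ≤ K) (B : Set C2)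
    (hB : B ⊆ ⋃ i, f i '' S i) :
    volume B ≤ ENNReal.ofReal (K ^ 2) * ∑ i, volume (ball (v i) (r i)) := by
  calc volume B ≤ volume (⋃ i, f i '' S i) := measure_mono hB
    _ ≤ ∑ i, volume (f i '' S i) := measure_iUnion_fintype_le _ _
    _ ≤ ∑ i, ENNReal.ofReal (K ^ 2) * volume (ball (v i) (r i)) := by
        refine Finset.sum_le_sum fun i _ => (image_le (S i) (hS i) (f i) (hf i) (hdet i)).trans ?_
        gcongr
        exact hsub i
    _ = _ := (Finset.mul_sum _ _ _).symm

/-- the lower bound which follows from a comparison of volumes -/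
theorem lower_of {B : Set C2} (hB0 : volume B ≠ 0) (hB1 : volume B ≠ ⊤) {A : ENNReal} (hA : A ≠ ⊤) :
    ∃ c > (0 : ℝ), ∀ x : ℝ, 0 ≤ x → volume B ≤ ENNReal.ofReal (x ^ 2) * A → c ≤ x := by
  have hb : 0 < (volume B).toReal := ENNReal.toReal_pos hB0 hB1
  have ha : 0 ≤ A.toReal := ENNReal.toReal_nonneg
  refine ⟨min 1 ((volume B).toReal / (A.toReal + 1)), by positivity, fun x hx h => ?_⟩
  by_contra hc
  rw [not_le, lt_min_iff] at hc
  obtain ⟨h1, h2⟩ := hc
  rw [lt_div_iff₀ (by positivity)] at h2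
  have h3 := ENNReal.toReal_mono (ENNReal.mul_ne_top ENNReal.ofReal_ne_top hA) h
  rw [ENNReal.toReal_mul, ENNReal.toReal_ofReal (by positivity)] at h3
  have h4 : x ^ 2 * A.toReal ≤ x * A.toReal := by
    refine mul_le_mul_of_nonneg_right ?_ ha
    nlinarith
  nlinarith

end Vale.Agent.P290.R2.H850
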